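import Crest.Agent.R163.Q3.AfB

set_option autoImplicit false
set_option maxRecDepth 100000
set_option linter.all false
set_option Elab.async false

namespace Crest.Agent.R163.P5

def par : Par := ⟨6,[(3,3,0),(2,2,2),(5,1,0),(4,1,1),(4,2,0),(3,2,1)],8192,603979776,5,0,0,⟨14,15,32⟩,true,1,1⟩

theorem hw : par.wf = true := by decide +kernel

end Crest.Agent.R163.P5
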